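import Crest.Agent.Lib.Bc.Pois.W47a
/-! Row 163: the Poisson grid orbit of the closure window `mu ∈ [47/100, 48/100]`: upper chain `d' = 4433/1000`, tilt `-12/25`,
grid size 36, weights in units of `2^-28`; at level 48: `s < 162/1000`, `r ≤ 6357/131072`. -/
set_option maxRecDepth 1000000
open Crest.ProbabilityR.Broadcast
namespace Crest.Agent.Lib.Bc.GridO.W47b
def wE : List ℕ := [nat_lit 1364113,nat_lit 2944649,nat_lit 1550811,nat_lit 2776421,nat_lit 2810280,nat_lit 1300755,nat_lit 2538452,nat_lit 2550397,nat_lit 2378677,nat_lit 1098745,nat_lit 2371994,nat_lit 2380586,nat_lit 2230471,nat_lit 2041693,nat_lit 955373,nat_lit 2267425,nat_lit 2284256,nat_lit 2155482,nat_lit 1986197,nat_lit 1847829,nat_lit 903398,nat_lit 2207542,nat_lit 2245446,nat_lit 2129301,nat_lit 1948175,nat_lit 1809200,nat_lit 1765927,nat_lit 875490,nat_lit 2177560,nat_lit 2241407,nat_lit 2128726,nat_lit 1933303,nat_lit 1796870,nat_lit 1785151,nat_lit 1798127,nat_lit 909374,nat_lit 2172512,nat_lit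 2261457,nat_lit 2147796,nat_lit 1930987,nat_lit 1836687,nat_lit 1854761,nat_lit 1824243,nat_lit 1814749,nat_lit 901033,nat_lit 2188064,nat_lit 2305313,nat_lit 2179835,nat_lit 1966986,nat_lit 1909817,nat_lit 1896233,nat_lit 1826165,nat_lit 1802376,nat_lit 1782312,nat_lit 1077286,nat_lit 2216984,nat_lit 2367041,nat_lit 2229229,nat_lit 2049244,nat_lit 1967123,nat_lit 1915242,nat_lit 1831036,nat_lit 1815931,nat_lit 2114641,nat_lit 2493829,nat_lit 1205680,nat_lit 2258127,nat_lit 2440755,nat_lit 2316391,nat_lit 2138001,nat_lit 2007416,nat_lit 1926686,nat_lit 1844159,nat_lit 2137948,nat_lit 2414149,nat_lit 2329319,nat_lit 2329065,nat_lit 1133857,nat_lit 2319645,nat_lit 2534112,nat_lit 2426534,nat_lit 2192639,nat_lit 2034773,nat_lit 1942643,nat_lit 2159308,nat_lit 2434504,nat_lit 2283394,nat_lit 2281065,nat_lit 2318981,nat_lit 2281693,nat_lit 3754002,nat_lit 2378979,nat_lit 2659627,nat_lit 2518167,nat_lit 2221838,nat_lit 2055137,nat_lit 2243522,nat_lit 2405101,nat_lit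 2322061,nat_lit 2229209,nat_lit 2250288,nat_lit 1160560,nat_lit 2448915,nat_lit 2787746,nat_lit 2580483,nat_lit 2247825,nat_lit 2357104,nat_lit 2494444,nat_lit 2325908,nat_lit 2291458,nat_lit 1112671,nat_lit 2528531,nat_lit 2903683,nat_lit 2608375,nat_lit 2557840,nat_lit 2616243,nat_lit 2423451,nat_lit 1151288,nat_lit 2624799,nat_lit 2977360,nat_lit 2959992,nat_lit 2848855,nat_lit 1286800,nat_lit 2720409,nat_lit 3423152,nat_lit 1663492,nat_lit 1436782]
theorem chk : eqF (levelsPF 74 18889465931478580854784 14007996280973190758400 72057594037927936 268435456 (mkTabF 36 13 74 W47a.P W47a.K) W47a.ks (0 :: W47a.ks) W47a.g0 W47a.ms 78114717696 10 W47a.wE) wE = true := by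
  decide +kernel
theorem invE : InvP (-(((12 : ℕ) : ℝ) / ((25 : ℕ) : ℝ))) (((4433 : ℕ) : ℝ) / ((1000 : ℕ) : ℝ)) W47a.hd0 W47a.hch0 36 13 268435456 W47a.ks 20 wE :=
  InvP.check (m := 10) (k := 10) W47a.setup W47a.hP W47a.hK W47a.hB W47a.hT W47a.hTE W47a.hdfc W47a.invE chk
end Crest.Agent.Lib.Bc.GridO.W47b
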