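import Crest.Agent.Lib.Bc.Pois.W47b
/-! Row 163: the Poisson grid orbit of the closure window `mu ∈ [47/100, 48/100]`: upper chain `d' = 4433/1000`, tilt `-12/25`,
grid size 36, weights in units of `2^-28`; at level 48: `s < 162/1000`, `r ≤ 6357/131072`. -/
set_option maxRecDepth 1000000
open Crest.ProbabilityR.Broadcast
namespace Crest.Agent.Lib.Bc.GridO.W47c
def wE : List ℕ := [nat_lit 278075,nat_lit 889074,nat_lit 702671,nat_lit 1005681,nat_lit 1519292,nat_lit 825345,nat_lit 1029115,nat_lit 1550046,nat_lit 1694143,nat_lit 879677,nat_lit 1036739,nat_lit 1564773,nat_lit 1717340,nat_lit 1777329,nat_lit 901778,nat_lit 1047233,nat_lit 1587563,nat_lit 1752369,nat_lit 1826710,nat_lit 1846484,nat_lit 958287,nat_lit 1062864,nat_lit 1627190,nat_lit 1807896,nat_lit 1882891,nat_lit 1908019,nat_lit 1971963,nat_lit 1020619,nat_lit 1083794,nat_lit 1679670,nat_lit 1871349,nat_lit 1949860,nat_lit 1969402,nat_lit 2052276,nat_lit 2155923,nat_lit 1138612,nat_lit 1111289,nat_lit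 1740047,nat_lit 1949200,nat_lit 2018150,nat_lit 2059028,nat_lit 2175485,nat_lit 2276249,nat_lit 2380072,nat_lit 1242885,nat_lit 1142923,nat_lit 1811524,nat_lit 2031889,nat_lit 2101945,nat_lit 2172965,nat_lit 2303603,nat_lit 2381722,nat_lit 2464686,nat_lit 2546797,nat_lit 1432044,nat_lit 1179393,nat_lit 1894810,nat_lit 2121505,nat_lit 2214488,nat_lit 2296690,nat_lit 2415241,nat_lit 2471593,nat_lit 2554878,nat_lit 2829150,nat_lit 3322714,nat_lit 1746730,nat_lit 1217286,nat_lit 1981146,nat_lit 2225980,nat_lit 2348639,nat_lit 2412265,nat_lit 2506411,nat_lit 2552128,nat_lit 2831711,nat_lit 3253776,nat_lit 3403556,nat_lit 3541562,nat_lit 1792572,nat_lit 1263166,nat_lit 2076151,nat_lit 2350245,nat_lit 2470871,nat_lit 2513995,nat_lit 2586784,nat_lit 2812499,nat_lit 3231600,nat_lit 3330101,nat_lit 3442838,nat_lit 3604827,nat_lit 3658498,nat_lit 3994051,nat_lit 1306246,nat_lit 2183864,nat_lit 2476687,nat_lit 2563037,nat_lit 2588406,nat_lit 2821420,nat_lit 3145180,nat_lit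 3288352,nat_lit 3337800,nat_lit 3445388,nat_lit 1806165,nat_lit 1352578,nat_lit 2296677,nat_lit 2587108,nat_lit 2642372,nat_lit 2813775,nat_lit 3132416,nat_lit 3202604,nat_lit 3304626,nat_lit 1674726,nat_lit 1397119,nat_lit 2402575,nat_lit 2659622,nat_lit 2851440,nat_lit 3097837,nat_lit 3175947,nat_lit 1601640,nat_lit 1445750,nat_lit 2481169,nat_lit 2858267,nat_lit 3114377,nat_lit 1567325,nat_lit 1484210,nat_lit 2660638,nat_lit 1541318,nat_lit 762390]
theorem chk : eqF (levelsPF 74 18889465931478580854784 14007996280973190758400 72057594037927936 268435456 (mkTabF 36 13 74 W47a.P W47a.K) W47a.ks (0 :: W47a.ks) W47a.g0 W47a.ms 78114717696 10 W47b.wE) wE = true := by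
  decide +kernel
theorem invE : InvP (-(((12 : ℕ) : ℝ) / ((25 : ℕ) : ℝ))) (((4433 : ℕ) : ℝ) / ((1000 : ℕ) : ℝ)) W47a.hd0 W47a.hch0 36 13 268435456 W47a.ks 30 wE :=
  InvP.check (m := 20) (k := 10) W47a.setup W47a.hP W47a.hK W47a.hB W47a.hT W47a.hTE W47a.hdfc W47b.invE chk
end Crest.Agent.Lib.Bc.GridO.W47c
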