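import Crest.Agent.Lib.Bc.Pois.W47c
/-! Row 163: the Poisson grid orbit of the closure window `mu ∈ [47/100, 48/100]`: upper chain `d' = 4433/1000`, tilt `-12/25`,
grid size 36, weights in units of `2^-28`; at level 48: `s < 162/1000`, `r ≤ 6357/131072`. -/
set_option maxRecDepth 1000000
open Crest.ProbabilityR.Broadcast
namespace Crest.Agent.Lib.Bc.GridO.W47d
def wE : List ℕ := [nat_lit 84834,nat_lit 347988,nat_lit 355677,nat_lit 450301,nat_lit 878527,nat_lit 540880,nat_lit 500959,nat_lit 975538,nat_lit 1206861,nat_lit 681403,nat_lit 533751,nat_lit 1044016,nat_lit 1296953,nat_lit 1465667,nat_lit 791505,nat_lit 561903,nat_lit 1105398,nat_lit 1380452,nat_lit 1572232,nat_lit 1692802,nat_lit 918483,nat_lit 588543,nat_lit 1169972,nat_lit 1472062,nat_lit 1678792,nat_lit 1817946,nat_lit 1965739,nat_lit 1056634,nat_lit 615464,nat_lit 1239727,nat_lit 1565102,nat_lit 1793099,nat_lit 1935889,nat_lit 2105349,nat_lit 2290532,nat_lit 1246150,nat_lit 644259,nat_lit 1311938,nat_lit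 1667740,nat_lit 1905925,nat_lit 2071469,nat_lit 2274067,nat_lit 2479038,nat_lit 2686683,nat_lit 1452229,nat_lit 673811,nat_lit 1389248,nat_lit 1773681,nat_lit 2025797,nat_lit 2220603,nat_lit 2460925,nat_lit 2667896,nat_lit 2866323,nat_lit 3063830,nat_lit 1709260,nat_lit 705063,nat_lit 1474034,nat_lit 1883828,nat_lit 2163871,nat_lit 2384559,nat_lit 2640476,nat_lit 2839958,nat_lit 3041591,nat_lit 3368028,nat_lit 3948986,nat_lit 2162793,nat_lit 735831,nat_lit 1559507,nat_lit 1999557,nat_lit 2321124,nat_lit 2549480,nat_lit 2800585,nat_lit 2993237,nat_lit 3336042,nat_lit 3862138,nat_lit 4224692,nat_lit 4525427,nat_lit 2351885,nat_lit 770167,nat_lit 1649789,nat_lit 2127407,nat_lit 2476306,nat_lit 2705217,nat_lit 2942083,nat_lit 3256267,nat_lit 3788893,nat_lit 4103718,nat_lit 4375893,nat_lit 4684873,nat_lit 4858752,nat_lit 4206685,nat_lit 802257,nat_lit 1743946,nat_lit 2260678,nat_lit 2605951,nat_lit 2827097,nat_lit 3166558,nat_lit 3624745,nat_lit 3973724,nat_lit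 4192297,nat_lit 4429390,nat_lit 2355701,nat_lit 835057,nat_lit 1839939,nat_lit 2384771,nat_lit 2719843,nat_lit 3030660,nat_lit 3490226,nat_lit 3776684,nat_lit 4044366,nat_lit 2113954,nat_lit 864228,nat_lit 1929254,nat_lit 2475477,nat_lit 2892187,nat_lit 3301992,nat_lit 3600105,nat_lit 1901649,nat_lit 893845,nat_lit 1998348,nat_lit 2615058,nat_lit 3111408,nat_lit 1686368,nat_lit 914984,nat_lit 2095601,nat_lit 1380613,nat_lit 465901]
theorem chk : eqF (levelsPF 74 18889465931478580854784 14007996280973190758400 72057594037927936 268435456 (mkTabF 36 13 74 W47a.P W47a.K) W47a.ks (0 :: W47a.ks) W47a.g0 W47a.ms 78114717696 10 W47c.wE) wE = true := by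
  decide +kernel
theorem invE : InvP (-(((12 : ℕ) : ℝ) / ((25 : ℕ) : ℝ))) (((4433 : ℕ) : ℝ) / ((1000 : ℕ) : ℝ)) W47a.hd0 W47a.hch0 36 13 268435456 W47a.ks 40 wE :=
  InvP.check (m := 30) (k := 10) W47a.setup W47a.hP W47a.hK W47a.hB W47a.hT W47a.hTE W47a.hdfc W47c.invE chk
end Crest.Agent.Lib.Bc.GridO.W47d
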