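import Crest.Agent.Lib.Bc.Pois.W48a
/-! Row 163: the Poisson grid orbit of the closure window `mu ∈ [48/100, 49/100]`: upper chain `d' = 1063/250`, tilt `-49/100`,
grid size 36, weights in units of `2^-28`; at level 58: `s < 155/1000`, `r ≤ 46787/1048576`. -/
set_option maxRecDepth 1000000
open Crest.ProbabilityR.Broadcast
namespace Crest.Agent.Lib.Bc.GridO.W48b
def wE : List ℕ := [nat_lit 2941499,nat_lit 4718271,nat_lit 1838598,nat_lit 4135425,nat_lit 3128797,nat_lit 1366537,nat_lit 3606150,nat_lit 2709083,nat_lit 2377519,nat_lit 1046985,nat_lit 3286097,nat_lit 2471665,nat_lit 2173949,nat_lit 1891242,nat_lit 865254,nat_lit 3092153,nat_lit 2333842,nat_lit 2078740,nat_lit 1813485,nat_lit 1643677,nat_lit 792093,nat_lit 2976647,nat_lit 2277997,nat_lit 2029231,nat_lit 1750840,nat_lit 1583860,nat_lit 1529428,nat_lit 765259,nat_lit 2915885,nat_lit 2265082,nat_lit 2016255,nat_lit 1716505,nat_lit 1576348,nat_lit 1568981,nat_lit 1572042,nat_lit 774782,nat_lit 2901688,nat_lit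 2279445,nat_lit 2005802,nat_lit 1701675,nat_lit 1628360,nat_lit 1622981,nat_lit 1545514,nat_lit 1513106,nat_lit 746361,nat_lit 2907163,nat_lit 2319981,nat_lit 2033463,nat_lit 1756980,nat_lit 1701965,nat_lit 1618589,nat_lit 1528206,nat_lit 1485970,nat_lit 1456688,nat_lit 1060996,nat_lit 2942969,nat_lit 2367480,nat_lit 2088646,nat_lit 1836285,nat_lit 1721429,nat_lit 1605229,nat_lit 1522587,nat_lit 1490035,nat_lit 2030113,nat_lit 2237096,nat_lit 1021983,nat_lit 3007623,nat_lit 2451579,nat_lit 2190503,nat_lit 1893514,nat_lit 1731761,nat_lit 1616836,nat_lit 1516625,nat_lit 2031708,nat_lit 2099187,nat_lit 1998922,nat_lit 1946417,nat_lit 936477,nat_lit 3077068,nat_lit 2564769,nat_lit 2287820,nat_lit 1903930,nat_lit 1737099,nat_lit 1613618,nat_lit 2028034,nat_lit 2122024,nat_lit 1909050,nat_lit 1927495,nat_lit 1926834,nat_lit 1888355,nat_lit 4390749,nat_lit 3174088,nat_lit 2704590,nat_lit 2348019,nat_lit 1920695,nat_lit 1746041,nat_lit 2108666,nat_lit 2104587,nat_lit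 1963347,nat_lit 1843229,nat_lit 1934243,nat_lit 972096,nat_lit 3269170,nat_lit 2830584,nat_lit 2373113,nat_lit 1930196,nat_lit 2240502,nat_lit 2187586,nat_lit 1972441,nat_lit 1928395,nat_lit 917411,nat_lit 3387221,nat_lit 2925229,nat_lit 2380554,nat_lit 2431293,nat_lit 2326070,nat_lit 2066177,nat_lit 970381,nat_lit 3533698,nat_lit 2977899,nat_lit 2958412,nat_lit 2573273,nat_lit 1125207,nat_lit 3673300,nat_lit 3776508,nat_lit 1609057,nat_lit 2145193]
theorem chk : eqF (levelsPF 76 75557863725914323419136 56031985123892763033600 72057594037927936 268435456 (mkTabF 36 13 76 W48a.P W48a.K) W48a.ks (0 :: W48a.ks) W48a.g0 W48a.ms 185220464640 10 W48a.wE) wE = true := by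
  decide +kernel
theorem invE : InvP (-(((49 : ℕ) : ℝ) / ((100 : ℕ) : ℝ))) (((1063 : ℕ) : ℝ) / ((250 : ℕ) : ℝ)) W48a.hd0 W48a.hch0 36 13 268435456 W48a.ks 20 wE :=
  InvP.check (m := 10) (k := 10) W48a.setup W48a.hP W48a.hK W48a.hB W48a.hT W48a.hTE W48a.hdfc W48a.invE chk
end Crest.Agent.Lib.Bc.GridO.W48b
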