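import Crest.Agent.Lib.Bc.Pois.W48b
/-! Row 163: the Poisson grid orbit of the closure window `mu ∈ [48/100, 49/100]`: upper chain `d' = 1063/250`, tilt `-49/100`,
grid size 36, weights in units of `2^-28`; at level 58: `s < 155/1000`, `r ≤ 46787/1048576`. -/
set_option maxRecDepth 1000000
open Crest.ProbabilityR.Broadcast
namespace Crest.Agent.Lib.Bc.GridO.W48c
def wE : List ℕ := [nat_lit 597811,nat_lit 1519340,nat_lit 953893,nat_lit 1583256,nat_lit 1906932,nat_lit 964573,nat_lit 1542565,nat_lit 1852527,nat_lit 1882753,nat_lit 930206,nat_lit 1508171,nat_lit 1815762,nat_lit 1850753,nat_lit 1816469,nat_lit 891652,nat_lit 1495265,nat_lit 1805880,nat_lit 1856511,nat_lit 1831845,nat_lit 1795848,nat_lit 911750,nat_lit 1495531,nat_lit 1828816,nat_lit 1887354,nat_lit 1858915,nat_lit 1820929,nat_lit 1845181,nat_lit 946378,nat_lit 1511897,nat_lit 1870257,nat_lit 1937554,nat_lit 1895559,nat_lit 1859413,nat_lit 1914810,nat_lit 1994549,nat_lit 1033929,nat_lit 1538734,nat_lit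 1926857,nat_lit 1992264,nat_lit 1940842,nat_lit 1937021,nat_lit 2025797,nat_lit 2072562,nat_lit 2128409,nat_lit 1095357,nat_lit 1574508,nat_lit 1999092,nat_lit 2063285,nat_lit 2017505,nat_lit 2053350,nat_lit 2113059,nat_lit 2136002,nat_lit 2165792,nat_lit 2216855,nat_lit 1336345,nat_lit 1618093,nat_lit 2075718,nat_lit 2148177,nat_lit 2126637,nat_lit 2153045,nat_lit 2181758,nat_lit 2192608,nat_lit 2229443,nat_lit 2641183,nat_lit 3066903,nat_lit 1552695,nat_lit 1670876,nat_lit 2169030,nat_lit 2260146,nat_lit 2244336,nat_lit 2237936,nat_lit 2258278,nat_lit 2236084,nat_lit 2633945,nat_lit 2965452,nat_lit 3035051,nat_lit 3098982,nat_lit 1551071,nat_lit 1726746,nat_lit 2277331,nat_lit 2385448,nat_lit 2331678,nat_lit 2302313,nat_lit 2307689,nat_lit 2613927,nat_lit 2945093,nat_lit 2933728,nat_lit 3020983,nat_lit 3134351,nat_lit 3164879,nat_lit 4609355,nat_lit 1791250,nat_lit 2401099,nat_lit 2503176,nat_lit 2407353,nat_lit 2356500,nat_lit 2655941,nat_lit 2882226,nat_lit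 2928721,nat_lit 2914540,nat_lit 3035466,nat_lit 1577630,nat_lit 1853447,nat_lit 2530434,nat_lit 2591113,nat_lit 2462841,nat_lit 2694908,nat_lit 2907026,nat_lit 2865249,nat_lit 2921762,nat_lit 1456990,nat_lit 1921560,nat_lit 2641557,nat_lit 2646596,nat_lit 2781865,nat_lit 2929376,nat_lit 2889840,nat_lit 1425789,nat_lit 1996412,nat_lit 2720659,nat_lit 2971875,nat_lit 3025740,nat_lit 1464578,nat_lit 2056594,nat_lit 3064424,nat_lit 1604818,nat_lit 1106663]
theorem chk : eqF (levelsPF 76 75557863725914323419136 56031985123892763033600 72057594037927936 268435456 (mkTabF 36 13 76 W48a.P W48a.K) W48a.ks (0 :: W48a.ks) W48a.g0 W48a.ms 185220464640 10 W48b.wE) wE = true := by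
  decide +kernel
theorem invE : InvP (-(((49 : ℕ) : ℝ) / ((100 : ℕ) : ℝ))) (((1063 : ℕ) : ℝ) / ((250 : ℕ) : ℝ)) W48a.hd0 W48a.hch0 36 13 268435456 W48a.ks 30 wE :=
  InvP.check (m := 20) (k := 10) W48a.setup W48a.hP W48a.hK W48a.hB W48a.hT W48a.hTE W48a.hdfc W48b.invE chk
end Crest.Agent.Lib.Bc.GridO.W48c
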