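import Crest.Agent.Lib.Bc.Pois.W48c
/-! Row 163: the Poisson grid orbit of the closure window `mu ∈ [48/100, 49/100]`: upper chain `d' = 1063/250`, tilt `-49/100`,
grid size 36, weights in units of `2^-28`; at level 58: `s < 155/1000`, `r ≤ 46787/1048576`. -/
set_option maxRecDepth 1000000
open Crest.ProbabilityR.Broadcast
namespace Crest.Agent.Lib.Bc.GridO.W48d
def wE : List ℕ := [nat_lit 165175,nat_lit 569717,nat_lit 488869,nat_lit 683555,nat_lit 1121619,nat_lit 644744,nat_lit 727776,nat_lit 1192545,nat_lit 1375844,nat_lit 743890,nat_lit 754635,nat_lit 1241584,nat_lit 1437583,nat_lit 1550391,nat_lit 810470,nat_lit 780936,nat_lit 1290442,nat_lit 1504250,nat_lit 1632256,nat_lit 1708632,nat_lit 907264,nat_lit 807099,nat_lit 1350065,nat_lit 1581809,nat_lit 1720301,nat_lit 1804675,nat_lit 1913595,nat_lit 1015708,nat_lit 837796,nat_lit 1416755,nat_lit 1668737,nat_lit 1812471,nat_lit 1897874,nat_lit 2033716,nat_lit 2189581,nat_lit 1175030,nat_lit 870395,nat_lit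 1491275,nat_lit 1760105,nat_lit 1908321,nat_lit 2016443,nat_lit 2190032,nat_lit 2348539,nat_lit 2507646,nat_lit 1337453,nat_lit 906874,nat_lit 1573954,nat_lit 1860080,nat_lit 2016770,nat_lit 2165290,nat_lit 2346484,nat_lit 2498356,nat_lit 2633802,nat_lit 2792246,nat_lit 1600495,nat_lit 944952,nat_lit 1659215,nat_lit 1968113,nat_lit 2151189,nat_lit 2316627,nat_lit 2491204,nat_lit 2632544,nat_lit 2775766,nat_lit 3171947,nat_lit 3734204,nat_lit 1996859,nat_lit 986367,nat_lit 1753580,nat_lit 2090486,nat_lit 2299880,nat_lit 2461736,nat_lit 2637479,nat_lit 2744013,nat_lit 3137240,nat_lit 3632874,nat_lit 3907463,nat_lit 4129812,nat_lit 2126927,nat_lit 1029596,nat_lit 1856304,nat_lit 2222509,nat_lit 2435115,nat_lit 2583295,nat_lit 2748339,nat_lit 3072848,nat_lit 3559069,nat_lit 3769221,nat_lit 3991872,nat_lit 4250571,nat_lit 4391491,nat_lit 4823940,nat_lit 1074922,nat_lit 1964008,nat_lit 2360124,nat_lit 2557024,nat_lit 2686749,nat_lit 3036381,nat_lit 3428144,nat_lit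 3681951,nat_lit 3825043,nat_lit 4042312,nat_lit 2143073,nat_lit 1117595,nat_lit 2077544,nat_lit 2476452,nat_lit 2652395,nat_lit 2954814,nat_lit 3349991,nat_lit 3516672,nat_lit 3723690,nat_lit 1923682,nat_lit 1161151,nat_lit 2178849,nat_lit 2560149,nat_lit 2885968,nat_lit 3227230,nat_lit 3413806,nat_lit 1764612,nat_lit 1204481,nat_lit 2256299,nat_lit 2769705,nat_lit 3127345,nat_lit 1637395,nat_lit 1237536,nat_lit 2432512,nat_lit 1473435,nat_lit 645821]
theorem chk : eqF (levelsPF 76 75557863725914323419136 56031985123892763033600 72057594037927936 268435456 (mkTabF 36 13 76 W48a.P W48a.K) W48a.ks (0 :: W48a.ks) W48a.g0 W48a.ms 185220464640 10 W48c.wE) wE = true := by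
  decide +kernel
theorem invE : InvP (-(((49 : ℕ) : ℝ) / ((100 : ℕ) : ℝ))) (((1063 : ℕ) : ℝ) / ((250 : ℕ) : ℝ)) W48a.hd0 W48a.hch0 36 13 268435456 W48a.ks 40 wE :=
  InvP.check (m := 30) (k := 10) W48a.setup W48a.hP W48a.hK W48a.hB W48a.hT W48a.hTE W48a.hdfc W48c.invE chk
end Crest.Agent.Lib.Bc.GridO.W48d
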