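import Crest.Agent.Lib.Bc.Pois.W48d
/-! Row 163: the Poisson grid orbit of the closure window `mu ∈ [48/100, 49/100]`: upper chain `d' = 1063/250`, tilt `-49/100`,
grid size 36, weights in units of `2^-28`; at level 58: `s < 155/1000`, `r ≤ 46787/1048576`. -/
set_option maxRecDepth 1000000
open Crest.ProbabilityR.Broadcast
namespace Crest.Agent.Lib.Bc.GridO.W48e
def wE : List ℕ := [nat_lit 62897,nat_lit 264272,nat_lit 278952,nat_lit 352892,nat_lit 711321,nat_lit 452033,nat_lit 401812,nat_lit 809196,nat_lit 1031032,nat_lit 596157,nat_lit 435851,nat_lit 882388,nat_lit 1129102,nat_lit 1305781,nat_lit 717468,nat_lit 466070,nat_lit 948950,nat_lit 1221717,nat_lit 1422486,nat_lit 1566465,nat_lit 861539,nat_lit 494083,nat_lit 1018557,nat_lit 1319049,nat_lit 1542241,nat_lit 1705470,nat_lit 1875760,nat_lit 1025885,nat_lit 523402,nat_lit 1091092,nat_lit 1421539,nat_lit 1665234,nat_lit 1838205,nat_lit 2039011,nat_lit 2256487,nat_lit 1241578,nat_lit 552665,nat_lit 1168315,nat_lit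 1527971,nat_lit 1790837,nat_lit 1989781,nat_lit 2230070,nat_lit 2471645,nat_lit 2716609,nat_lit 1488410,nat_lit 583910,nat_lit 1250136,nat_lit 1640463,nat_lit 1922147,nat_lit 2163247,nat_lit 2432501,nat_lit 2688592,nat_lit 2922460,nat_lit 3182934,nat_lit 1806890,nat_lit 615111,nat_lit 1333360,nat_lit 1758943,nat_lit 2073737,nat_lit 2345571,nat_lit 2631509,nat_lit 2889761,nat_lit 3138246,nat_lit 3572686,nat_lit 4231509,nat_lit 2336486,nat_lit 647750,nat_lit 1422750,nat_lit 1886019,nat_lit 2238203,nat_lit 2529273,nat_lit 2832365,nat_lit 3064077,nat_lit 3504729,nat_lit 4114201,nat_lit 4571887,nat_lit 4954342,nat_lit 2605151,nat_lit 681528,nat_lit 1517421,nat_lit 2017982,nat_lit 2397739,nat_lit 2691763,nat_lit 2995201,nat_lit 3387835,nat_lit 3987770,nat_lit 4388113,nat_lit 4760509,nat_lit 5169030,nat_lit 5433206,nat_lit 5009099,nat_lit 715419,nat_lit 1612383,nat_lit 2158836,nat_lit 2546339,nat_lit 2832971,nat_lit 3266925,nat_lit 3784665,nat_lit 4218487,nat_lit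 4520004,nat_lit 4858121,nat_lit 2613456,nat_lit 746851,nat_lit 1710695,nat_lit 2283639,nat_lit 2667083,nat_lit 3074230,nat_lit 3601062,nat_lit 3949083,nat_lit 4308409,nat_lit 2283978,nat_lit 777670,nat_lit 1799314,nat_lit 2378673,nat_lit 2862596,nat_lit 3348730,nat_lit 3715401,nat_lit 1992649,nat_lit 806426,nat_lit 1868486,nat_lit 2534979,nat_lit 3080982,nat_lit 1710511,nat_lit 827825,nat_lit 1977537,nat_lit 1334185,nat_lit 426437]
theorem chk : eqF (levelsPF 76 75557863725914323419136 56031985123892763033600 72057594037927936 268435456 (mkTabF 36 13 76 W48a.P W48a.K) W48a.ks (0 :: W48a.ks) W48a.g0 W48a.ms 185220464640 10 W48d.wE) wE = true := by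
  decide +kernel
theorem invE : InvP (-(((49 : ℕ) : ℝ) / ((100 : ℕ) : ℝ))) (((1063 : ℕ) : ℝ) / ((250 : ℕ) : ℝ)) W48a.hd0 W48a.hch0 36 13 268435456 W48a.ks 50 wE :=
  InvP.check (m := 40) (k := 10) W48a.setup W48a.hP W48a.hK W48a.hB W48a.hT W48a.hTE W48a.hdfc W48d.invE chk
end Crest.Agent.Lib.Bc.GridO.W48e
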