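import Crest.Agent.Lib.Bc.Pois.W49a
/-! Row 163: the Poisson grid orbit of the closure window `mu ∈ [49/100, 50/100]`: upper chain `d' = 2041/500`, tilt `-1/2`,
grid size 36, weights in units of `2^-28`; at level 75: `s < 145/1000`, `r ≤ 20851/524288`. -/
set_option maxRecDepth 1000000
open Crest.ProbabilityR.Broadcast
namespace Crest.Agent.Lib.Bc.GridO.W49b
def wE : List ℕ := [nat_lit 8698726,nat_lit 7694318,nat_lit 1790422,nat_lit 6518337,nat_lit 2935765,nat_lit 1238625,nat_lit 5434505,nat_lit 2434689,nat_lit 2060271,nat_lit 866332,nat_lit 4883667,nat_lit 2184798,nat_lit 1850736,nat_lit 1553032,nat_lit 690543,nat_lit 4508587,nat_lit 2048998,nat_lit 1753955,nat_lit 1457791,nat_lit 1295617,nat_lit 611490,nat_lit 4328514,nat_lit 1990022,nat_lit 1715920,nat_lit 1374798,nat_lit 1239571,nat_lit 1190020,nat_lit 637287,nat_lit 4200612,nat_lit 1977854,nat_lit 1672227,nat_lit 1332724,nat_lit 1237182,nat_lit 1302940,nat_lit 1216149,nat_lit 595882,nat_lit 4168799,nat_lit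 1992675,nat_lit 1661257,nat_lit 1338745,nat_lit 1357713,nat_lit 1263404,nat_lit 1162586,nat_lit 1130470,nat_lit 540276,nat_lit 4187849,nat_lit 2017198,nat_lit 1675054,nat_lit 1438993,nat_lit 1362068,nat_lit 1219225,nat_lit 1140656,nat_lit 1109497,nat_lit 1056562,nat_lit 1183823,nat_lit 4218974,nat_lit 2065688,nat_lit 1772346,nat_lit 1487660,nat_lit 1336336,nat_lit 1192739,nat_lit 1125955,nat_lit 1100943,nat_lit 2030525,nat_lit 1801531,nat_lit 763066,nat_lit 4292697,nat_lit 2166325,nat_lit 1872985,nat_lit 1470584,nat_lit 1327429,nat_lit 1199210,nat_lit 1117242,nat_lit 1998016,nat_lit 1592574,nat_lit 1564197,nat_lit 1461592,nat_lit 701083,nat_lit 4504147,nat_lit 2285577,nat_lit 1926170,nat_lit 1467854,nat_lit 1317993,nat_lit 1186401,nat_lit 1971203,nat_lit 1627216,nat_lit 1410878,nat_lit 1522601,nat_lit 1438225,nat_lit 1404154,nat_lit 5112659,nat_lit 4561753,nat_lit 2426679,nat_lit 1924772,nat_lit 1464690,nat_lit 1333690,nat_lit 2001190,nat_lit 1633747,nat_lit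 1467642,nat_lit 1379582,nat_lit 1548275,nat_lit 724694,nat_lit 4726910,nat_lit 2516737,nat_lit 1917305,nat_lit 1457308,nat_lit 2131968,nat_lit 1676849,nat_lit 1519650,nat_lit 1453478,nat_lit 688351,nat_lit 4896510,nat_lit 2551573,nat_lit 1910754,nat_lit 2283320,nat_lit 1824534,nat_lit 1557464,nat_lit 743572,nat_lit 5098091,nat_lit 2566542,nat_lit 2857426,nat_lit 2002201,nat_lit 862009,nat_lit 5294577,nat_lit 3853965,nat_lit 1322041,nat_lit 3891076]
theorem chk : eqF (levelsPF 70 1180591620717411303424 1120639702477855260672 72057594037927936 268435456 (mkTabF 36 13 70 W49a.P W49a.K) W49a.ks (0 :: W49a.ks) W49a.g0 W49a.ms 108716359680 10 W49a.wE) wE = true := by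
  decide +kernel
theorem invE : InvP (-(((1 : ℕ) : ℝ) / ((2 : ℕ) : ℝ))) (((2041 : ℕ) : ℝ) / ((500 : ℕ) : ℝ)) W49a.hd0 W49a.hch0 36 13 268435456 W49a.ks 20 wE :=
  InvP.check (m := 10) (k := 10) W49a.setup W49a.hP W49a.hK W49a.hB W49a.hT W49a.hTE W49a.hdfc W49a.invE chk
end Crest.Agent.Lib.Bc.GridO.W49b
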