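import Crest.Agent.Lib.Bc.Pois.W49b
/-! Row 163: the Poisson grid orbit of the closure window `mu ∈ [49/100, 50/100]`: upper chain `d' = 2041/500`, tilt `-1/2`,
grid size 36, weights in units of `2^-28`; at level 75: `s < 145/1000`, `r ≤ 20851/524288`. -/
set_option maxRecDepth 1000000
open Crest.ProbabilityR.Broadcast
namespace Crest.Agent.Lib.Bc.GridO.W49c
def wE : List ℕ := [nat_lit 1878069,nat_lit 3110420,nat_lit 1320856,nat_lit 2953898,nat_lit 2411769,nat_lit 1121766,nat_lit 2695115,nat_lit 2197264,nat_lit 2051635,nat_lit 946624,nat_lit 2543951,nat_lit 2072575,nat_lit 1941031,nat_lit 1781554,nat_lit 840236,nat_lit 2448752,nat_lit 2016395,nat_lit 1902662,nat_lit 1753006,nat_lit 1649324,nat_lit 811559,nat_lit 2412723,nat_lit 2004509,nat_lit 1908365,nat_lit 1729404,nat_lit 1630292,nat_lit 1611210,nat_lit 838362,nat_lit 2401367,nat_lit 2028925,nat_lit 1922549,nat_lit 1727358,nat_lit 1642383,nat_lit 1706809,nat_lit 1711330,nat_lit 875672,nat_lit 2417910,nat_lit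 2073951,nat_lit 1952740,nat_lit 1751214,nat_lit 1743359,nat_lit 1757369,nat_lit 1734605,nat_lit 1741178,nat_lit 868542,nat_lit 2461211,nat_lit 2132662,nat_lit 1995190,nat_lit 1837437,nat_lit 1823031,nat_lit 1790432,nat_lit 1752645,nat_lit 1748891,nat_lit 1736347,nat_lit 1284205,nat_lit 2508378,nat_lit 2202850,nat_lit 2087030,nat_lit 1930890,nat_lit 1873998,nat_lit 1805616,nat_lit 1770940,nat_lit 1771306,nat_lit 2453015,nat_lit 2629660,nat_lit 1251167,nat_lit 2577192,nat_lit 2304515,nat_lit 2199466,nat_lit 2000717,nat_lit 1914078,nat_lit 1845284,nat_lit 1786858,nat_lit 2422542,nat_lit 2473243,nat_lit 2462448,nat_lit 2447678,nat_lit 1210924,nat_lit 2681379,nat_lit 2417648,nat_lit 2314754,nat_lit 2053572,nat_lit 1941347,nat_lit 1864278,nat_lit 2403774,nat_lit 2463901,nat_lit 2335488,nat_lit 2427385,nat_lit 2453707,nat_lit 2451193,nat_lit 5287747,nat_lit 2757266,nat_lit 2561474,nat_lit 2387464,nat_lit 2084384,nat_lit 1973963,nat_lit 2443906,nat_lit 2440996,nat_lit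 2350046,nat_lit 2304918,nat_lit 2448064,nat_lit 1241968,nat_lit 2859867,nat_lit 2697689,nat_lit 2438304,nat_lit 2106402,nat_lit 2534437,nat_lit 2475286,nat_lit 2356333,nat_lit 2335498,nat_lit 1150283,nat_lit 2974492,nat_lit 2790992,nat_lit 2465367,nat_lit 2662279,nat_lit 2573734,nat_lit 2394150,nat_lit 1164876,nat_lit 3089861,nat_lit 2853357,nat_lit 3056473,nat_lit 2721855,nat_lit 1256227,nat_lit 3189890,nat_lit 3549762,nat_lit 1584374,nat_lit 1930613]
theorem chk : eqF (levelsPF 70 1180591620717411303424 1120639702477855260672 72057594037927936 268435456 (mkTabF 36 13 70 W49a.P W49a.K) W49a.ks (0 :: W49a.ks) W49a.g0 W49a.ms 108716359680 10 W49b.wE) wE = true := by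
  decide +kernel
theorem invE : InvP (-(((1 : ℕ) : ℝ) / ((2 : ℕ) : ℝ))) (((2041 : ℕ) : ℝ) / ((500 : ℕ) : ℝ)) W49a.hd0 W49a.hch0 36 13 268435456 W49a.ks 30 wE :=
  InvP.check (m := 20) (k := 10) W49a.setup W49a.hP W49a.hK W49a.hB W49a.hT W49a.hTE W49a.hdfc W49b.invE chk
end Crest.Agent.Lib.Bc.GridO.W49c
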