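import Crest.Agent.Lib.Bc.Pois.W49c
/-! Row 163: the Poisson grid orbit of the closure window `mu ∈ [49/100, 50/100]`: upper chain `d' = 2041/500`, tilt `-1/2`,
grid size 36, weights in units of `2^-28`; at level 75: `s < 145/1000`, `r ≤ 20851/524288`. -/
set_option maxRecDepth 1000000
open Crest.ProbabilityR.Broadcast
namespace Crest.Agent.Lib.Bc.GridO.W49d
def wE : List ℕ := [nat_lit 466763,nat_lit 1179344,nat_lit 753774,nat_lit 1277201,nat_lit 1564727,nat_lit 818685,nat_lit 1273910,nat_lit 1561699,nat_lit 1638744,nat_lit 829541,nat_lit 1271938,nat_lit 1560346,nat_lit 1644794,nat_lit 1656442,nat_lit 830365,nat_lit 1277777,nat_lit 1581333,nat_lit 1676355,nat_lit 1701549,nat_lit 1704901,nat_lit 877320,nat_lit 1298397,nat_lit 1621588,nat_lit 1732428,nat_lit 1748183,nat_lit 1752729,nat_lit 1805884,nat_lit 954007,nat_lit 1326667,nat_lit 1679068,nat_lit 1797434,nat_lit 1805430,nat_lit 1809784,nat_lit 1923042,nat_lit 2009587,nat_lit 1067115,nat_lit 1362362,nat_lit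 1749900,nat_lit 1871277,nat_lit 1871631,nat_lit 1927297,nat_lit 2034565,nat_lit 2121952,nat_lit 2212406,nat_lit 1147985,nat_lit 1409447,nat_lit 1830174,nat_lit 1949981,nat_lit 1975093,nat_lit 2050127,nat_lit 2148484,nat_lit 2214899,nat_lit 2287375,nat_lit 2359831,nat_lit 1481639,nat_lit 1456755,nat_lit 1915761,nat_lit 2057992,nat_lit 2095445,nat_lit 2170722,nat_lit 2234461,nat_lit 2297569,nat_lit 2368508,nat_lit 2919827,nat_lit 3353589,nat_lit 1719922,nat_lit 1513284,nat_lit 2022418,nat_lit 2177552,nat_lit 2220922,nat_lit 2273630,nat_lit 2332033,nat_lit 2364912,nat_lit 2872747,nat_lit 3227033,nat_lit 3352115,nat_lit 3478143,nat_lit 1770047,nat_lit 1582555,nat_lit 2130140,nat_lit 2316992,nat_lit 2332204,nat_lit 2356709,nat_lit 2403725,nat_lit 2836684,nat_lit 3159971,nat_lit 3222217,nat_lit 3378106,nat_lit 3543469,nat_lit 3622618,nat_lit 5488155,nat_lit 1642465,nat_lit 2258920,nat_lit 2436025,nat_lit 2413430,nat_lit 2426890,nat_lit 2834394,nat_lit 3086858,nat_lit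 3161427,nat_lit 3234829,nat_lit 3417227,nat_lit 1797021,nat_lit 1709535,nat_lit 2394140,nat_lit 2533188,nat_lit 2475655,nat_lit 2830149,nat_lit 3056178,nat_lit 3088241,nat_lit 3178762,nat_lit 1623128,nat_lit 1781776,nat_lit 2501801,nat_lit 2595945,nat_lit 2851525,nat_lit 3035657,nat_lit 3047906,nat_lit 1540734,nat_lit 1849932,nat_lit 2581680,nat_lit 2961538,nat_lit 3043146,nat_lit 1515426,nat_lit 1906066,nat_lit 2940978,nat_lit 1570985,nat_lit 1057691]
theorem chk : eqF (levelsPF 70 1180591620717411303424 1120639702477855260672 72057594037927936 268435456 (mkTabF 36 13 70 W49a.P W49a.K) W49a.ks (0 :: W49a.ks) W49a.g0 W49a.ms 108716359680 10 W49c.wE) wE = true := by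
  decide +kernel
theorem invE : InvP (-(((1 : ℕ) : ℝ) / ((2 : ℕ) : ℝ))) (((2041 : ℕ) : ℝ) / ((500 : ℕ) : ℝ)) W49a.hd0 W49a.hch0 36 13 268435456 W49a.ks 40 wE :=
  InvP.check (m := 30) (k := 10) W49a.setup W49a.hP W49a.hK W49a.hB W49a.hT W49a.hTE W49a.hdfc W49c.invE chk
end Crest.Agent.Lib.Bc.GridO.W49d
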