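import Crest.Agent.Lib.Bc.Pois.W49d
/-! Row 163: the Poisson grid orbit of the closure window `mu ∈ [49/100, 50/100]`: upper chain `d' = 2041/500`, tilt `-1/2`,
grid size 36, weights in units of `2^-28`; at level 75: `s < 145/1000`, `r ≤ 20851/524288`. -/
set_option maxRecDepth 1000000
open Crest.ProbabilityR.Broadcast
namespace Crest.Agent.Lib.Bc.GridO.W49e
def wE : List ℕ := [nat_lit 148002,nat_lit 498120,nat_lit 421882,nat_lit 606718,nat_lit 983447,nat_lit 573730,nat_lit 653073,nat_lit 1059953,nat_lit 1238481,nat_lit 677599,nat_lit 685418,nat_lit 1114705,nat_lit 1309942,nat_lit 1427914,nat_lit 755846,nat_lit 714484,nat_lit 1171935,nat_lit 1383859,nat_lit 1522313,nat_lit 1612734,nat_lit 863351,nat_lit 746471,nat_lit 1236489,nat_lit 1470293,nat_lit 1616406,nat_lit 1715923,nat_lit 1839629,nat_lit 997218,nat_lit 780384,nat_lit 1308311,nat_lit 1563254,nat_lit 1717732,nat_lit 1818564,nat_lit 1992224,nat_lit 2149012,nat_lit 1174188,nat_lit 816052,nat_lit 1388502,nat_lit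 1662186,nat_lit 1820673,nat_lit 1963569,nat_lit 2147627,nat_lit 2333054,nat_lit 2514279,nat_lit 1347599,nat_lit 856878,nat_lit 1474485,nat_lit 1763803,nat_lit 1947066,nat_lit 2116060,nat_lit 2322032,nat_lit 2501293,nat_lit 2668693,nat_lit 2843332,nat_lit 1683113,nat_lit 896829,nat_lit 1563056,nat_lit 1885167,nat_lit 2086538,nat_lit 2283051,nat_lit 2473951,nat_lit 2655023,nat_lit 2820295,nat_lit 3340030,nat_lit 3935084,nat_lit 2116416,nat_lit 940978,nat_lit 1667089,nat_lit 2010072,nat_lit 2241699,nat_lit 2437020,nat_lit 2630771,nat_lit 2783962,nat_lit 3264237,nat_lit 3811916,nat_lit 4115972,nat_lit 4405808,nat_lit 2295266,nat_lit 991323,nat_lit 1767592,nat_lit 2155023,nat_lit 2390844,nat_lit 2570696,nat_lit 2758465,nat_lit 3190668,nat_lit 3685763,nat_lit 3956884,nat_lit 4233993,nat_lit 4553901,nat_lit 4749890,nat_lit 5684760,nat_lit 1036265,nat_lit 1880685,nat_lit 2292074,nat_lit 2512290,nat_lit 2680794,nat_lit 3117685,nat_lit 3547702,nat_lit 3809214,nat_lit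 4035523,nat_lit 4310944,nat_lit 2315063,nat_lit 1082826,nat_lit 2000879,nat_lit 2412163,nat_lit 2608242,nat_lit 3002999,nat_lit 3423245,nat_lit 3637951,nat_lit 3871555,nat_lit 2035946,nat_lit 1130758,nat_lit 2102518,nat_lit 2496838,nat_lit 2888870,nat_lit 3268521,nat_lit 3480500,nat_lit 1827758,nat_lit 1174317,nat_lit 2181014,nat_lit 2745427,nat_lit 3108225,nat_lit 1653223,nat_lit 1209000,nat_lit 2384478,nat_lit 1454837,nat_lit 645195]
theorem chk : eqF (levelsPF 70 1180591620717411303424 1120639702477855260672 72057594037927936 268435456 (mkTabF 36 13 70 W49a.P W49a.K) W49a.ks (0 :: W49a.ks) W49a.g0 W49a.ms 108716359680 10 W49d.wE) wE = true := by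
  decide +kernel
theorem invE : InvP (-(((1 : ℕ) : ℝ) / ((2 : ℕ) : ℝ))) (((2041 : ℕ) : ℝ) / ((500 : ℕ) : ℝ)) W49a.hd0 W49a.hch0 36 13 268435456 W49a.ks 50 wE :=
  InvP.check (m := 40) (k := 10) W49a.setup W49a.hP W49a.hK W49a.hB W49a.hT W49a.hTE W49a.hdfc W49d.invE chk
end Crest.Agent.Lib.Bc.GridO.W49e
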