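import Crest.Agent.Lib.Bc.Pois.W49e
/-! Row 163: the Poisson grid orbit of the closure window `mu ∈ [49/100, 50/100]`: upper chain `d' = 2041/500`, tilt `-1/2`,
grid size 36, weights in units of `2^-28`; at level 75: `s < 145/1000`, `r ≤ 20851/524288`. -/
set_option maxRecDepth 1000000
open Crest.ProbabilityR.Broadcast
namespace Crest.Agent.Lib.Bc.GridO.W49f
def wE : List ℕ := [nat_lit 61137,nat_lit 249189,nat_lit 256045,nat_lit 333357,nat_lit 654851,nat_lit 417416,nat_lit 380941,nat_lit 749331,nat_lit 955530,nat_lit 555169,nat_lit 416032,nat_lit 820906,nat_lit 1053766,nat_lit 1221624,nat_lit 675726,nat_lit 446528,nat_lit 888985,nat_lit 1146458,nat_lit 1342134,nat_lit 1486683,nat_lit 821520,nat_lit 477069,nat_lit 959787,nat_lit 1246106,nat_lit 1461749,nat_lit 1624918,nat_lit 1800215,nat_lit 1000057,nat_lit 507878,nat_lit 1033914,nat_lit 1350728,nat_lit 1588142,nat_lit 1760509,nat_lit 1984383,nat_lit 2195656,nat_lit 1225835,nat_lit 538932,nat_lit 1113773,nat_lit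 1460126,nat_lit 1714099,nat_lit 1929003,nat_lit 2171481,nat_lit 2430498,nat_lit 2687687,nat_lit 1476773,nat_lit 572701,nat_lit 1197480,nat_lit 1571911,nat_lit 1857301,nat_lit 2102438,nat_lit 2386262,nat_lit 2658233,nat_lit 2912792,nat_lit 3182602,nat_lit 1848689,nat_lit 605458,nat_lit 1282547,nat_lit 1699133,nat_lit 2009333,nat_lit 2297675,nat_lit 2587122,nat_lit 2872708,nat_lit 3130277,nat_lit 3669550,nat_lit 4373308,nat_lit 2424724,nat_lit 640403,nat_lit 1379912,nat_lit 1826002,nat_lit 2179335,nat_lit 2485828,nat_lit 2791455,nat_lit 3057703,nat_lit 3561986,nat_lit 4239246,nat_lit 4712105,nat_lit 5160196,nat_lit 2737730,nat_lit 679143,nat_lit 1472332,nat_lit 1969589,nat_lit 2348709,nat_lit 2656125,nat_lit 2966231,nat_lit 3444000,nat_lit 4059621,nat_lit 4513022,nat_lit 4927050,nat_lit 5397260,nat_lit 5719843,nat_lit 5856497,nat_lit 713864,nat_lit 1572504,nat_lit 2110475,nat_lit 2495100,nat_lit 2798135,nat_lit 3296921,nat_lit 3855155,nat_lit 4283676,nat_lit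 4659806,nat_lit 5049366,nat_lit 2751062,nat_lit 748498,nat_lit 1677872,nat_lit 2238353,nat_lit 2613438,nat_lit 3082028,nat_lit 3637157,nat_lit 4015240,nat_lit 4389772,nat_lit 2361042,nat_lit 783006,nat_lit 1769254,nat_lit 2332929,nat_lit 2845629,nat_lit 3364099,nat_lit 3740246,nat_lit 2027280,nat_lit 813614,nat_lit 1840897,nat_lit 2521620,nat_lit 3059402,nat_lit 1713858,nat_lit 837352,nat_lit 1972476,nat_lit 1329468,nat_lit 438649]
theorem chk : eqF (levelsPF 70 1180591620717411303424 1120639702477855260672 72057594037927936 268435456 (mkTabF 36 13 70 W49a.P W49a.K) W49a.ks (0 :: W49a.ks) W49a.g0 W49a.ms 108716359680 10 W49e.wE) wE = true := by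
  decide +kernel
theorem invE : InvP (-(((1 : ℕ) : ℝ) / ((2 : ℕ) : ℝ))) (((2041 : ℕ) : ℝ) / ((500 : ℕ) : ℝ)) W49a.hd0 W49a.hch0 36 13 268435456 W49a.ks 60 wE :=
  InvP.check (m := 50) (k := 10) W49a.setup W49a.hP W49a.hK W49a.hB W49a.hT W49a.hTE W49a.hdfc W49e.invE chk
end Crest.Agent.Lib.Bc.GridO.W49f
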