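import Crest.Agent.Lib.Bc.Pois.W49f
/-! Row 163: the Poisson grid orbit of the closure window `mu ∈ [49/100, 50/100]`: upper chain `d' = 2041/500`, tilt `-1/2`,
grid size 36, weights in units of `2^-28`; at level 75: `s < 145/1000`, `r ≤ 20851/524288`. -/
set_option maxRecDepth 1000000
open Crest.ProbabilityR.Broadcast
namespace Crest.Agent.Lib.Bc.GridO.W49g
def wE : List ℕ := [nat_lit 31967,nat_lit 147576,nat_lit 173049,nat_lit 211798,nat_lit 474412,nat_lit 323385,nat_lit 253055,nat_lit 567511,nat_lit 773247,nat_lit 469654,nat_lit 284754,nat_lit 641102,nat_lit 879930,nat_lit 1067612,nat_lit 610561,nat_lit 312386,nat_lit 710010,nat_lit 979103,nat_lit 1200210,nat_lit 1374974,nat_lit 778292,nat_lit 339442,nat_lit 780026,nat_lit 1082939,nat_lit 1332115,nat_lit 1533151,nat_lit 1741851,nat_lit 986944,nat_lit 366316,nat_lit 851916,nat_lit 1191098,nat_lit 1471147,nat_lit 1689444,nat_lit 1948854,nat_lit 2199133,nat_lit 1247645,nat_lit 393042,nat_lit 928232,nat_lit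 1303550,nat_lit 1609649,nat_lit 1874128,nat_lit 2157968,nat_lit 2468344,nat_lit 2782159,nat_lit 1556798,nat_lit 421454,nat_lit 1007469,nat_lit 1418541,nat_lit 1762820,nat_lit 2061616,nat_lit 2398788,nat_lit 2738462,nat_lit 3062110,nat_lit 3409226,nat_lit 1971682,nat_lit 448943,nat_lit 1087504,nat_lit 1546898,nat_lit 1922227,nat_lit 2273724,nat_lit 2632822,nat_lit 2998753,nat_lit 3333099,nat_lit 3908629,nat_lit 4689752,nat_lit 2652100,nat_lit 477757,nat_lit 1177964,nat_lit 1673349,nat_lit 2099385,nat_lit 2483124,nat_lit 2871160,nat_lit 3228039,nat_lit 3772344,nat_lit 4540443,nat_lit 5151218,nat_lit 5734666,nat_lit 3084094,nat_lit 509306,nat_lit 1263227,nat_lit 1813596,nat_lit 2278719,nat_lit 2677464,nat_lit 3081008,nat_lit 3613105,nat_lit 4316437,nat_lit 4912951,nat_lit 5451749,nat_lit 6052936,nat_lit 6491908,nat_lit 5994778,nat_lit 537537,nat_lit 1353675,nat_lit 1953117,nat_lit 2439038,nat_lit 2841902,nat_lit 3402273,nat_lit 4053750,nat_lit 4615265,nat_lit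 5118613,nat_lit 5617219,nat_lit 3092546,nat_lit 565124,nat_lit 1447676,nat_lit 2082029,nat_lit 2570741,nat_lit 3107644,nat_lit 3757055,nat_lit 4263181,nat_lit 4757566,nat_lit 2601691,nat_lit 592035,nat_lit 1530083,nat_lit 2180017,nat_lit 2777211,nat_lit 3391491,nat_lit 3889430,nat_lit 2159694,nat_lit 615531,nat_lit 1595020,nat_lit 2336350,nat_lit 2978977,nat_lit 1734700,nat_lit 633399,nat_lit 1691074,nat_lit 1226301,nat_lit 328676]
theorem chk : eqF (levelsPF 70 1180591620717411303424 1120639702477855260672 72057594037927936 268435456 (mkTabF 36 13 70 W49a.P W49a.K) W49a.ks (0 :: W49a.ks) W49a.g0 W49a.ms 108716359680 10 W49f.wE) wE = true := by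
  decide +kernel
theorem invE : InvP (-(((1 : ℕ) : ℝ) / ((2 : ℕ) : ℝ))) (((2041 : ℕ) : ℝ) / ((500 : ℕ) : ℝ)) W49a.hd0 W49a.hch0 36 13 268435456 W49a.ks 70 wE :=
  InvP.check (m := 60) (k := 10) W49a.setup W49a.hP W49a.hK W49a.hB W49a.hT W49a.hTE W49a.hdfc W49f.invE chk
end Crest.Agent.Lib.Bc.GridO.W49g
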